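import Vale.Agent.P154.SP.Data
import Vale.Agent.P154.ApxLemma

set_option maxRecDepth 100000

namespace Vale.Agent.P154.SP

open PolyR Cert InT OutT

/-- The quotient polynomial for `j = 1`. -/
noncomputable def S1 (u : ℝ) : ℝ :=
  (-15 / 4194304 : ℝ) * u ^ 0 + (-1685 / 16777216 : ℝ) * u ^ 1 + (8291 / 16777216 : ℝ) * u ^ 2 + (21029 / 4194304 : ℝ) * u ^ 3 + (-241871 / 16777216 : ℝ) * u ^ 4 + (-977041 / 16777216 : ℝ) * u ^ 5 + (2779045 / 16777216 : ℝ) * u ^ 6 + (1185045 / 8388608 : ℝ) * u ^ 7 + (-5366785 / 8388608 : ℝ) * u ^ 8 + (7113571 / 16777216 : ℝ) * u ^ 9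

/-- Certificate polynomial. -/
def lpu1 : List ITm := [⟨(-1291977241635322570800781250000),0,0⟩,⟨(-9786754287779331207275390625000),1,0⟩,⟨32954790968894958496093750000000,2,0⟩,⟨244203015799148559570312500000000,3,0⟩,⟨(-512881430692537936401367187500000),4,0⟩,⟨(-1513236221786885225861816406250000),5,0⟩,⟨3143766511829776277668759765625000,6,0⟩,⟨1958304882218651446118843015625000,7,0⟩,⟨(-6477693965755679826537820464962500),8,0⟩,⟨3135628970771059928929629278408083,9,0⟩]

/-- Certificate tree. -/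
def tpu1 : OutT := (A (A (A (O l) (A (O l) (A (O l) (O l)))) (A (A (A (A (O l) (O l)) (A (O l) (A (O l) (O l)))) (A (A (A (O l) (O l)) (A (A (O l) (O l)) (A (O l) (O l)))) (A (A (A (O l) (O l)) (A (O l) (O l))) (A (A (O l) (O l)) (O l))))) (A (A (A (A (O l) (O l)) (A (O l) (O l))) (A (O l) (O l))) (A (A (O l) (O l)) (A (O l) (O l)))))) (A (A (A (A (A (O l) (O l)) (A (O l) (O l))) (A (A (O l) (O l)) (A (O l) (O l)))) (A (A (A (O l) (A (O l) (O l))) (A (A (O l) (O l)) (A (O l) (O l)))) (A (A (A (O l) (O l)) (A (O l) (O l))) (A (A (A (O l) (O l)) (A (O l) (O l))) (A (A (O l) (O l)) (A (O l) (O l))))))) (A (A (A (A (A (A (O l) (O l)) (A (O l) (O l))) (A (A (A (O l) (O l)) (A (O l) (O l))) (A (A (O l) (O l)) (A (O l) (O l))))) (A (A (A (A (O l) (O l)) (A (O l) (O l))) (A (A (A (O l) (O l)) (A (O l) (O l))) (A (A (O l) (O l)) (A (O l) (O l))))) (A (A (A (A (O l) (O l)) (A (O l) (O l))) (A (A (O l) (O l)) (A (O l) (O l)))) (A (A (A (O l) (O l)) (A (O l) (A (O l) (O l)))) (A (A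 (A (O l) (O l)) (A (O l) (O l))) (A (A (O l) (O l)) (A (O l) (O l)))))))) (A (A (A (A (A (A (O l) (O l)) (A (O l) (O l))) (A (A (O l) (O l)) (A (O l) (O l)))) (A (A (A (O l) (O l)) (A (O l) (O l))) (A (A (O l) (O l)) (A (O l) (O l))))) (A (A (A (A (O l) (O l)) (A (O l) (O l))) (A (A (O l) (O l)) (O l))) (A (A (O l) (O l)) (A (O l) (O l))))) (A (A (A (A (O l) (O l)) (A (O l) (O l))) (A (A (O l) (O l)) (A (O l) (O l)))) (A (A (A (O l) (O l)) (A (O l) (O l))) (A (O l) (O l)))))) (A (A (A (A (A (O l) (O l)) (A (O l) (O l))) (A (A (O l) (O l)) (A (O l) (O l)))) (A (A (A (O l) (O l)) (A (O l) (O l))) (A (A (O l) (O l)) (A (O l) (O l))))) (A (A (A (A (O l) (O l)) (A (O l) (O l))) (A (A (O l) (O l)) (A (O l) (O l)))) (A (A (A (O l) (O l)) (A (O l) (O l))) (A (A (A (O l) (O l)) (A (O l) (O l))) (A (A (O l) (O l)) (A (A (O l) (O l)) (A (O l) (A (O l) (O l))))))))))))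

theorem hpu1 (x : ℝ) (h0 : 0 ≤ x) (h1 : x ≤ 1) : evalIL lpu1 x 0 ≤ 0 :=
  uni_le 9 65536 lpu1 (by norm_num) (by norm_num) (by decide +kernel)
    (chkOut_sound (uniPb 9 65536 lpu1) tpu1 0 32768 0 32768 (by decide +kernel)) x h0 h1

/-- Certificate polynomial. -/
def lpl1 : List ITm := [⟨(-397907570004463195800781250000),0,0⟩,⟨8552462421357631683349609375000,1,0⟩,⟨(-32954790968894958496093750000000),2,0⟩,⟨(-244203015799148559570312500000000),3,0⟩,⟨512881430692537936401367187500000,4,0⟩,⟨1513236221786885225861816406250000,5,0⟩,⟨(-3143766511829776277668759765625000),6,0⟩,⟨(-1958304882218651446118843015625000),7,0⟩,⟨6477693965755679826537820464962500,8,0⟩,⟨(-3135628970771059928929629278408083),9,0⟩]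

/-- Certificate tree. -/
def tpl1 : OutT := (A (A (A (A (A (O l) (O l)) (A (A (O l) (O l)) (A (O l) (O l)))) (A (A (O l) (O l)) (A (O l) (O l)))) (A (A (O l) (A (O l) (O l))) (A (A (O l) (O l)) (A (A (O l) (O l)) (A (O l) (O l)))))) (A (A (A (A (A (A (O l) (O l)) (A (O l) (O l))) (A (A (O l) (O l)) (A (A (O l) (O l)) (A (O l) (O l))))) (A (A (A (A (O l) (O l)) (A (O l) (A (O l) (O l)))) (A (A (A (O l) (O l)) (A (O l) (O l))) (A (A (O l) (O l)) (A (O l) (O l))))) (A (A (A (A (O l) (O l)) (A (O l) (O l))) (A (A (O l) (O l)) (A (O l) (O l)))) (A (A (A (O l) (O l)) (A (O l) (O l))) (A (A (O l) (O l)) (A (O l) (O l))))))) (A (A (A (A (A (A (O l) (O l)) (O l)) (A (O l) (O l))) (A (A (O l) (O l)) (A (O l) (O l)))) (A (A (A (O l) (O l)) (A (O l) (O l))) (A (A (O l) (O l)) (A (O l) (O l))))) (A (A (A (O l) (O l)) (A (O l) (O l))) (A (A (O l) (O l)) (A (O l) (O l)))))) (A (A (A (A (A (O l) (O l)) (A (O l) (O l))) (A (A (O l) (O l)) (A (O l) (O l)))) (A (A (A (O l) (O l)) (A (O l)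 (O l))) (A (A (A (O l) (O l)) (A (O l) (O l))) (A (A (O l) (O l)) (A (O l) (O l)))))) (A (A (A (A (A (O l) (O l)) (A (O l) (O l))) (A (A (O l) (O l)) (A (O l) (O l)))) (A (A (A (A (O l) (O l)) (A (O l) (O l))) (A (A (O l) (O l)) (A (O l) (O l)))) (A (A (A (O l) (O l)) (A (O l) (O l))) (A (A (A (O l) (O l)) (A (O l) (O l))) (A (A (O l) (O l)) (A (O l) (O l))))))) (A (A (A (A (A (A (O l) (O l)) (A (O l) (O l))) (A (A (O l) (O l)) (A (A (O l) (O l)) (A (O l) (O l))))) (A (A (A (A (O l) (O l)) (A (O l) (O l))) (A (A (O l) (O l)) (A (O l) (O l)))) (A (A (A (O l) (O l)) (A (O l) (O l))) (A (A (O l) (O l)) (A (O l) (O l)))))) (A (A (A (A (A (O l) (O l)) (A (O l) (O l))) (A (A (O l) (O l)) (A (O l) (O l)))) (A (A (A (O l) (O l)) (O l)) (A (O l) (O l)))) (A (A (A (O l) (O l)) (A (O l) (O l))) (A (A (O l) (O l)) (A (O l) (O l)))))) (A (A (A (A (O l) (O l)) (A (O l) (O l))) (A (A (O l) (O l)) (A (O l) (O l)))) (A (A (A (O l) (O l)) (O l)) (A (O l) (O l)))))))))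

theorem hpl1 (x : ℝ) (h0 : 0 ≤ x) (h1 : x ≤ 1) : evalIL lpl1 x 0 ≤ 0 :=
  uni_le 9 65536 lpl1 (by norm_num) (by norm_num) (by decide +kernel)
    (chkOut_sound (uniPb 9 65536 lpl1) tpl1 0 32768 0 32768 (by decide +kernel)) x h0 h1

/-- Certificate polynomial. -/
def lnu1 : List ITm := [⟨(-661492347717285156250000000000000),0,0⟩,⟨2505409097671508789062500000000000,1,0⟩,⟨4218213244018554687500000000000000,2,0⟩,⟨(-15628993011145507812500000000000000),3,0⟩,⟨(-16412205782161213964843750000000000),4,0⟩,⟨24211779548590163613789062500000000,5,0⟩,⟨25150132094638210221350078125000000,6,0⟩,⟨(-7833219528874605784475372062500000),7,0⟩,⟨(-12955387931511359653075640929925000),8,0⟩,⟨(-3135628970771059928929629278408083),9,0⟩]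

/-- Certificate tree. -/
def tnu1 : OutT := (A (A (A (O l) (A (O l) (O l))) (A (A (A (O l) (A (O l) (O l))) (A (A (O l) (O l)) (A (O l) (O l)))) (A (A (O l) (O l)) (O l)))) (A (A (A (O l) (O l)) (A (O l) (O l))) (A (A (A (O l) (O l)) (A (O l) (A (O l) (O l)))) (A (A (A (A (O l) (O l)) (A (O l) (O l))) (A (A (A (O l) (O l)) (A (O l) (O l))) (A (A (O l) (O l)) (A (O l) (O l))))) (A (A (A (O l) (O l)) (A (O l) (O l))) (A (O l) (O l)))))))

theorem hnu1 (x : ℝ) (h0 : 0 ≤ x) (h1 : x ≤ 1) : evalIL lnu1 x 0 ≤ 0 :=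
  uni_le 9 65536 lnu1 (by norm_num) (by norm_num) (by decide +kernel)
    (chkOut_sound (uniPb 9 65536 lnu1) tnu1 0 32768 0 32768 (by decide +kernel)) x h0 h1

/-- Certificate polynomial. -/
def lnl1 : List ITm := [⟨(-203728675842285156250000000000000),0,0⟩,⟨(-2189430379867553710937500000000000),1,0⟩,⟨(-4218213244018554687500000000000000),2,0⟩,⟨15628993011145507812500000000000000,3,0⟩,⟨16412205782161213964843750000000000,4,0⟩,⟨(-24211779548590163613789062500000000),5,0⟩,⟨(-25150132094638210221350078125000000),6,0⟩,⟨7833219528874605784475372062500000,7,0⟩,⟨12955387931511359653075640929925000,8,0⟩,⟨3135628970771059928929629278408083,9,0⟩]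

/-- Certificate tree. -/
def tnl1 : OutT := (A (A (A (O l) (O l)) (A (O l) (O l))) (A (A (A (O l) (A (O l) (O l))) (A (A (A (O l) (O l)) (A (A (O l) (O l)) (A (O l) (O l)))) (A (A (A (O l) (O l)) (A (O l) (O l))) (A (O l) (O l))))) (A (A (A (A (O l) (O l)) (O l)) (A (O l) (O l))) (A (A (O l) (O l)) (A (O l) (A (O l) (A (O l) (A (O l) (O l)))))))))

theorem hnl1 (x : ℝ) (h0 : 0 ≤ x) (h1 : x ≤ 1) : evalIL lnl1 x 0 ≤ 0 :=
  uni_le 9 65536 lnl1 (by norm_num) (by norm_num) (by decide +kernel)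
    (chkOut_sound (uniPb 9 65536 lnl1) tnl1 0 32768 0 32768 (by decide +kernel)) x h0 h1

theorem apx1 (u : ℝ) (h0 : -(913 / 2500 : ℝ) ≤ u) (h1 : u ≤ (913 / 1250 : ℝ)) :
    |((1 + u)⁻¹) ^ 1 - evalZ Ax.p1 (3 * u) / Ax.D1| ≤ Ax.e1 * |u| ^ Ax.m1 := by
  have hu : 0 < 1 + u := by norm_num at h0 ⊢; linarith
  refine apx_of_S 1 2 _ (S1 u) _ u hu ?_ ?_ ?_
  · simp only [Ax, evalZ_cons, evalZ_nil, S1]
    push_cast
    ring
  · rcases le_total 0 u with hs | hs
    · have hx := hpu1 (u / (913 / 1250 : ℝ)) (by positivity) (by rw [div_le_one (by norm_num)]; exact h1)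
      have e : evalIL lpu1 (u / (913 / 1250 : ℝ)) 0 = 125000000000000000000000000000000000 * (S1 u - Ax.e1 * (1 + u) ^ 1) := by
        simp only [lpu1, evalIL, List.map_cons, List.map_nil, List.sum_cons, List.sum_nil, S1, Ax]
        push_cast
        ring
      rw [e] at hx
      have := cmul_nonpos (by norm_num) hx
      simp only [Ax] at this ⊢
      linarith
    · have hx := hnu1 (-u / (913 / 2500 : ℝ)) (by apply div_nonneg <;> [linarith; norm_num]) (by rw [div_le_one (by norm_num)]; linarith)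
      have e : evalIL lnu1 (-u / (913 / 2500 : ℝ)) 0 = 64000000000000000000000000000000000000 * (S1 u - Ax.e1 * (1 + u) ^ 1) := by
        simp only [lnu1, evalIL, List.map_cons, List.map_nil, List.sum_cons, List.sum_nil, S1, Ax]
        push_cast
        ring
      rw [e] at hx
      have := cmul_nonpos (by norm_num) hx
      simp only [Ax] at this ⊢
      linarith
  · rcases le_total 0 u with hs | hs
    · have hx := hpl1 (u / (913 / 1250 : ℝ)) (by positivity) (by rw [div_le_one (by norm_num)]; exact h1)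
      have e : evalIL lpl1 (u / (913 / 1250 : ℝ)) 0 = 125000000000000000000000000000000000 * (-S1 u - Ax.e1 * (1 + u) ^ 1) := by
        simp only [lpl1, evalIL, List.map_cons, List.map_nil, List.sum_cons, List.sum_nil, S1, Ax]
        push_cast
        ring
      rw [e] at hx
      have := cmul_nonpos (by norm_num) hx
      simp only [Ax] at this ⊢
      linarith
    · have hx := hnl1 (-u / (913 / 2500 : ℝ)) (by apply div_nonneg <;> [linarith; norm_num]) (by rw [div_le_one (by norm_num)]; linarith)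
      have e : evalIL lnl1 (-u / (913 / 2500 : ℝ)) 0 = 64000000000000000000000000000000000000 * (-S1 u - Ax.e1 * (1 + u) ^ 1) := by
        simp only [lnl1, evalIL, List.map_cons, List.map_nil, List.sum_cons, List.sum_nil, S1, Ax]
        push_cast
        ring
      rw [e] at hx
      have := cmul_nonpos (by norm_num) hx
      simp only [Ax] at this ⊢
      linarith

/-- The quotient polynomial for `j = 2`. -/
noncomputable def S2 (u : ℝ) : ℝ :=
  (-757 / 16777216 : ℝ) * u ^ 0 + (-10061 / 8388608 : ℝ) * u ^ 1 + (10701 / 2097152 : ℝ) * u ^ 2 + (1067833 / 16777216 : ℝ) * u ^ 3 + (-2057065 / 16777216 : ℝ) * u ^ 4 + (-6981267 / 8388608 : ℝ) * u ^ 5 + (22825919 / 16777216 : ℝ) * u ^ 6 + (57094455 / 16777216 : ℝ) * u ^ 7 + (-101690979 / 16777216 : ℝ) * u ^ 8 + (-15590607 / 8388608 : ℝ) * u ^ 9 + (19264619 / 4194304 : ℝ) * u ^ 10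

/-- Certificate polynomial. -/
def lpu2 : List ITm := [⟨(-4862959031015634536743164062500000),0,0⟩,⟨(-38748482707887887954711914062500000),1,0⟩,⟨104680916119180619716644287109375000,2,0⟩,⟨968781351681948900222778320312500000,3,0⟩,⟨(-1363110966470176186561584472656250000),4,0⟩,⟨(-6757844667192486587113952636718750000),5,0⟩,⟨8069246781936219895479901733398437500,6,0⟩,⟨14742102353459295737598203972167968750,7,0⟩,⟨(-19178237093998302649164640224788671875),8,0⟩,⟨(-4295166852652669306789601588231319375),9,0⟩,⟨7752971716927322586101649971579123531,10,0⟩]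

/-- Certificate tree. -/
def tpu2 : OutT := (A (A (A (O l) (A (O l) (A (O l) (O l)))) (A (A (A (O l) (A (O l) (A (O l) (O l)))) (A (A (A (O l) (O l)) (A (A (O l) (O l)) (A (O l) (O l)))) (A (A (A (O l) (O l)) (A (O l) (O l))) (A (O l) (O l))))) (A (A (A (A (O l) (O l)) (O l)) (A (O l) (O l))) (A (A (O l) (O l)) (A (O l) (O l)))))) (A (A (A (A (A (O l) (O l)) (A (O l) (O l))) (A (A (O l) (O l)) (A (O l) (O l)))) (A (A (A (O l) (O l)) (A (O l) (A (O l) (O l)))) (A (A (A (O l) (O l)) (A (O l) (O l))) (A (A (O l) (O l)) (A (A (O l) (O l)) (A (O l) (O l))))))) (A (A (A (A (A (A (O l) (O l)) (A (O l) (O l))) (A (A (O l) (O l)) (A (A (O l) (O l)) (A (O l) (O l))))) (A (A (A (A (O l) (O l)) (A (O l) (O l))) (A (A (O l) (O l)) (A (A (O l) (O l)) (A (O l) (O l))))) (A (A (A (A (O l) (O l)) (A (O l) (O l))) (A (A (O l) (O l)) (A (O l) (O l)))) (A (A (A (O l) (O l)) (A (O l) (O l))) (A (A (O l) (O l)) (A (O l) (O l))))))) (A (A (A (A (A (A (O l) (O l)) (A (O l) (O l))) (A (A (O l)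 (O l)) (A (O l) (O l)))) (A (A (A (O l) (O l)) (A (O l) (O l))) (A (A (O l) (O l)) (O l)))) (A (A (A (O l) (O l)) (A (O l) (O l))) (A (A (O l) (O l)) (A (O l) (O l))))) (A (A (A (A (O l) (O l)) (A (O l) (O l))) (A (O l) (O l))) (A (A (O l) (O l)) (A (O l) (O l)))))) (A (A (A (A (A (O l) (O l)) (A (O l) (O l))) (A (A (O l) (O l)) (A (O l) (O l)))) (A (A (A (O l) (O l)) (A (O l) (O l))) (A (A (O l) (O l)) (A (O l) (O l))))) (A (A (A (O l) (O l)) (A (A (O l) (O l)) (A (O l) (O l)))) (A (A (A (O l) (O l)) (A (O l) (O l))) (A (A (O l) (O l)) (A (A (O l) (O l)) (A (O l) (A (O l) (A (O l) (O l))))))))))))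

theorem hpu2 (x : ℝ) (h0 : 0 ≤ x) (h1 : x ≤ 1) : evalIL lpu2 x 0 ≤ 0 :=
  uni_le 10 65536 lpu2 (by norm_num) (by norm_num) (by decide +kernel)
    (chkOut_sound (uniPb 10 65536 lpu2) tpu2 0 32768 0 32768 (by decide +kernel)) x h0 h1

/-- Certificate polynomial. -/
def lpl2 : List ITm := [⟨(-1337903086096048355102539062500000),0,0⟩,⟨29690263327211141586303710937500000,1,0⟩,⟨(-107988977837003767490386962890625000),2,0⟩,⟨(-968781351681948900222778320312500000),3,0⟩,⟨1363110966470176186561584472656250000,4,0⟩,⟨6757844667192486587113952636718750000,5,0⟩,⟨(-8069246781936219895479901733398437500),6,0⟩,⟨(-14742102353459295737598203972167968750),7,0⟩,⟨19178237093998302649164640224788671875,8,0⟩,⟨4295166852652669306789601588231319375,9,0⟩,⟨(-7752971716927322586101649971579123531),10,0⟩]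

/-- Certificate tree. -/
def tpl2 : OutT := (A (A (A (A (A (O l) (A (O l) (O l))) (A (A (O l) (O l)) (A (O l) (O l)))) (A (A (O l) (O l)) (O l))) (A (A (O l) (A (O l) (O l))) (A (A (O l) (O l)) (A (A (O l) (O l)) (A (O l) (O l)))))) (A (A (A (A (A (O l) (A (O l) (O l))) (A (A (O l) (O l)) (A (A (O l) (O l)) (A (O l) (O l))))) (A (A (A (A (O l) (O l)) (A (O l) (A (O l) (O l)))) (A (A (A (O l) (O l)) (A (O l) (O l))) (A (A (O l) (O l)) (A (O l) (O l))))) (A (A (A (A (O l) (O l)) (A (O l) (O l))) (A (A (O l) (O l)) (A (O l) (O l)))) (A (A (A (O l) (O l)) (A (O l) (O l))) (A (A (O l) (O l)) (O l)))))) (A (A (A (A (A (O l) (O l)) (A (O l) (O l))) (A (A (O l) (O l)) (A (O l) (O l)))) (A (A (A (O l) (O l)) (O l)) (A (O l) (O l)))) (A (A (A (O l) (O l)) (A (O l) (O l))) (A (A (O l) (O l)) (A (O l) (O l)))))) (A (A (A (A (A (O l) (O l)) (A (O l) (O l))) (A (A (O l) (O l)) (A (O l) (O l)))) (A (A (A (O l) (O l)) (A (O l) (O l))) (A (A (O l) (O l)) (A (O l) (O l))))) (A (A (A (A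 (A (O l) (O l)) (A (O l) (O l))) (A (A (O l) (O l)) (A (O l) (O l)))) (A (A (A (O l) (O l)) (A (A (O l) (O l)) (A (O l) (O l)))) (A (A (A (O l) (O l)) (A (O l) (O l))) (A (A (O l) (O l)) (A (O l) (A (O l) (O l))))))) (A (A (A (A (A (A (O l) (O l)) (A (O l) (O l))) (A (A (O l) (O l)) (A (O l) (O l)))) (A (A (A (A (O l) (O l)) (A (O l) (O l))) (A (A (O l) (O l)) (A (O l) (O l)))) (A (A (A (O l) (O l)) (A (O l) (O l))) (A (A (O l) (O l)) (A (O l) (O l)))))) (A (A (A (A (A (O l) (O l)) (A (O l) (O l))) (A (A (O l) (O l)) (O l))) (A (A (O l) (O l)) (A (O l) (O l)))) (A (A (A (O l) (O l)) (A (O l) (O l))) (A (O l) (O l))))) (A (A (A (A (O l) (O l)) (A (O l) (O l))) (A (A (O l) (O l)) (O l))) (A (A (O l) (O l)) (A (O l) (O l)))))))))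

theorem hpl2 (x : ℝ) (h0 : 0 ≤ x) (h1 : x ≤ 1) : evalIL lpl2 x 0 ≤ 0 :=
  uni_le 10 65536 lpl2 (by norm_num) (by norm_num) (by decide +kernel)
    (chkOut_sound (uniPb 10 65536 lpl2) tpl2 0 32768 0 32768 (by decide +kernel)) x h0 h1

/-- Certificate polynomial. -/
def lnu2 : List ITm := [⟨(-4979670047760009765625000000000000000),0,0⟩,⟨19839223146438598632812500000000000000,1,0⟩,⟨26798314526510238647460937500000000000,2,0⟩,⟨(-124004013015289459228515625000000000000),3,0⟩,⟨(-87239101854091275939941406250000000000),4,0⟩,⟨216251029350159570787646484375000000000,5,0⟩,⟨129107948510979518327678427734375000000,6,0⟩,⟨(-117936818827674365900785631777343750000),7,0⟩,⟨(-76712948375993210596658560899154687500),8,0⟩,⟨8590333705305338613579203176462638750,9,0⟩,⟨7752971716927322586101649971579123531,10,0⟩]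

/-- Certificate tree. -/
def tnu2 : OutT := (A (A (A (O l) (A (O l) (O l))) (A (A (A (O l) (A (O l) (O l))) (A (A (O l) (O l)) (A (O l) (O l)))) (A (A (O l) (O l)) (O l)))) (A (A (A (O l) (O l)) (A (O l) (O l))) (A (A (A (O l) (O l)) (A (A (O l) (O l)) (A (O l) (O l)))) (A (A (A (A (O l) (O l)) (A (O l) (A (O l) (O l)))) (A (A (A (O l) (O l)) (A (O l) (A (O l) (O l)))) (A (A (A (O l) (O l)) (O l)) (A (O l) (O l))))) (A (A (A (A (O l) (O l)) (O l)) (A (O l) (O l))) (A (O l) (O l)))))))

theorem hnu2 (x : ℝ) (h0 : 0 ≤ x) (h1 : x ≤ 1) : evalIL lnu2 x 0 ≤ 0 :=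
  uni_le 10 65536 lnu2 (by norm_num) (by norm_num) (by decide +kernel)
    (chkOut_sound (uniPb 10 65536 lnu2) tnu2 0 32768 0 32768 (by decide +kernel)) x h0 h1

/-- Certificate polynomial. -/
def lnl2 : List ITm := [⟨(-1370012760162353515625000000000000000),0,0⟩,⟨(-15201414823532104492187500000000000000),1,0⟩,⟨(-27645178326272964477539062500000000000),2,0⟩,⟨124004013015289459228515625000000000000,3,0⟩,⟨87239101854091275939941406250000000000,4,0⟩,⟨(-216251029350159570787646484375000000000),5,0⟩,⟨(-129107948510979518327678427734375000000),6,0⟩,⟨117936818827674365900785631777343750000,7,0⟩,⟨76712948375993210596658560899154687500,8,0⟩,⟨(-8590333705305338613579203176462638750),9,0⟩,⟨(-7752971716927322586101649971579123531),10,0⟩]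

/-- Certificate tree. -/
def tnl2 : OutT := (A (A (A (O l) (O l)) (A (O l) (A (O l) (O l)))) (A (A (A (O l) (A (O l) (O l))) (A (A (A (O l) (O l)) (A (A (O l) (O l)) (A (O l) (O l)))) (A (A (A (A (O l) (O l)) (A (O l) (O l))) (A (O l) (O l))) (A (A (O l) (O l)) (O l))))) (A (A (A (A (O l) (O l)) (A (O l) (O l))) (A (O l) (O l))) (A (A (O l) (O l)) (A (A (O l) (O l)) (A (O l) (A (O l) (A (O l) (A (O l) (O l))))))))))

theorem hnl2 (x : ℝ) (h0 : 0 ≤ x) (h1 : x ≤ 1) : evalIL lnl2 x 0 ≤ 0 :=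
  uni_le 10 65536 lnl2 (by norm_num) (by norm_num) (by decide +kernel)
    (chkOut_sound (uniPb 10 65536 lnl2) tnl2 0 32768 0 32768 (by decide +kernel)) x h0 h1

theorem apx2 (u : ℝ) (h0 : -(913 / 2500 : ℝ) ≤ u) (h1 : u ≤ (913 / 1250 : ℝ)) :
    |((1 + u)⁻¹) ^ 2 - evalZ Ax.p2 (3 * u) / Ax.D2| ≤ Ax.e2 * |u| ^ Ax.m2 := by
  have hu : 0 < 1 + u := by norm_num at h0 ⊢; linarith
  refine apx_of_S 2 2 _ (S2 u) _ u hu ?_ ?_ ?_
  · simp only [Ax, evalZ_cons, evalZ_nil, S2]
    push_cast
    ring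
  · rcases le_total 0 u with hs | hs
    · have hx := hpu2 (u / (913 / 1250 : ℝ)) (by positivity) (by rw [div_le_one (by norm_num)]; exact h1)
      have e : evalIL lpu2 (u / (913 / 1250 : ℝ)) 0 = 39062500000000000000000000000000000000 * (S2 u - Ax.e2 * (1 + u) ^ 2) := by
        simp only [lpu2, evalIL, List.map_cons, List.map_nil, List.sum_cons, List.sum_nil, S2, Ax]
        push_cast
        ring
      rw [e] at hx
      have := cmul_nonpos (by norm_num) hx
      simp only [Ax] at this ⊢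
      linarith
    · have hx := hnu2 (-u / (913 / 2500 : ℝ)) (by apply div_nonneg <;> [linarith; norm_num]) (by rw [div_le_one (by norm_num)]; linarith)
      have e : evalIL lnu2 (-u / (913 / 2500 : ℝ)) 0 = 40000000000000000000000000000000000000000 * (S2 u - Ax.e2 * (1 + u) ^ 2) := by
        simp only [lnu2, evalIL, List.map_cons, List.map_nil, List.sum_cons, List.sum_nil, S2, Ax]
        push_cast
        ring
      rw [e] at hx
      have := cmul_nonpos (by norm_num) hx
      simp only [Ax] at this ⊢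
      linarith
  · rcases le_total 0 u with hs | hs
    · have hx := hpl2 (u / (913 / 1250 : ℝ)) (by positivity) (by rw [div_le_one (by norm_num)]; exact h1)
      have e : evalIL lpl2 (u / (913 / 1250 : ℝ)) 0 = 39062500000000000000000000000000000000 * (-S2 u - Ax.e2 * (1 + u) ^ 2) := by
        simp only [lpl2, evalIL, List.map_cons, List.map_nil, List.sum_cons, List.sum_nil, S2, Ax]
        push_cast
        ring
      rw [e] at hx
      have := cmul_nonpos (by norm_num) hx
      simp only [Ax] at this ⊢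
      linarith
    · have hx := hnl2 (-u / (913 / 2500 : ℝ)) (by apply div_nonneg <;> [linarith; norm_num]) (by rw [div_le_one (by norm_num)]; linarith)
      have e : evalIL lnl2 (-u / (913 / 2500 : ℝ)) 0 = 40000000000000000000000000000000000000000 * (-S2 u - Ax.e2 * (1 + u) ^ 2) := by
        simp only [lnl2, evalIL, List.map_cons, List.map_nil, List.sum_cons, List.sum_nil, S2, Ax]
        push_cast
        ring
      rw [e] at hx
      have := cmul_nonpos (by norm_num) hx
      simp only [Ax] at this ⊢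
      linarith

/-- The quotient polynomial for `j = 3`. -/
noncomputable def S3 (u : ℝ) : ℝ :=
  (1947 / 2097152 : ℝ) * u ^ 0 + (-84255 / 4194304 : ℝ) * u ^ 1 + (-2828215 / 16777216 : ℝ) * u ^ 2 + (10381553 / 16777216 : ℝ) * u ^ 3 + (59657799 / 16777216 : ℝ) * u ^ 4 + (-24808949 / 4194304 : ℝ) * u ^ 5 + (-1404657 / 65536 : ℝ) * u ^ 6 + (100045367 / 4194304 : ℝ) * u ^ 7 + (161986337 / 4194304 : ℝ) * u ^ 8 + (-379677761 / 16777216 : ℝ) * u ^ 9 + (-26916443 / 1048576 : ℝ) * u ^ 10

/-- Certificate polynomial. -/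
def lpu3 : List ITm := [⟨(-66089996835216879844665527343750000),0,0⟩,⟨(-1450016277492977678775787353515625000),1,0⟩,⟨(-7247791268510092049837112426757812500),2,0⟩,⟨18783116027149052098393440246582031250,3,0⟩,⟨79064297970529380872726440429687500000,4,0⟩,⟨(-96059940809197168893780517578125000000),5,0⟩,⟨(-254240640922750257407785312500000000000),6,0⟩,⟨206658112813708296068968240777343750000,7,0⟩,⟨244396300047366815524950442649303125000,8,0⟩,⟨(-104600118118337688396307983974049970625),9,0⟩,⟨(-86659350511644757067416761750008592856),10,0⟩]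

/-- Certificate tree. -/
def tpu3 : OutT := (A (A (A (A (O l) (O l)) (O l)) (A (A (O l) (A (O l) (O l))) (A (A (O l) (A (O l) (O l))) (A (A (O l) (A (O l) (O l))) (A (A (O l) (A (O l) (O l))) (A (A (O l) (O l)) (A (O l) (O l)))))))) (A (A (A (A (A (A (A (O l) (O l)) (A (O l) (O l))) (A (O l) (O l))) (A (A (O l) (O l)) (A (O l) (O l)))) (A (A (O l) (O l)) (A (O l) (O l)))) (A (A (A (O l) (O l)) (A (O l) (O l))) (A (A (O l) (O l)) (A (O l) (O l))))) (A (A (A (A (O l) (O l)) (A (O l) (O l))) (A (A (O l) (O l)) (A (A (O l) (O l)) (A (O l) (O l))))) (A (A (A (A (O l) (O l)) (A (O l) (A (O l) (O l)))) (A (A (A (O l) (O l)) (A (O l) (A (O l) (O l)))) (A (A (A (O l) (O l)) (A (O l) (O l))) (A (A (O l) (A (O l) (O l))) (A (A (O l) (O l)) (A (O l) (O l))))))) (A (A (A (A (A (A (O l) (O l)) (A (O l) (O l))) (A (O l) (O l))) (A (A (O l) (O l)) (A (O l) (O l)))) (A (A (O l) (O l)) (A (O l) (O l)))) (A (A (A (O l) (O l)) (O l)) (A (O l) (O l))))))))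

theorem hpu3 (x : ℝ) (h0 : 0 ≤ x) (h1 : x ≤ 1) : evalIL lpu3 x 0 ≤ 0 :=
  uni_le 10 65536 lpu3 (by norm_num) (by norm_num) (by decide +kernel)
    (chkOut_sound (uniPb 10 65536 lpu3) tpu3 0 32768 0 32768 (by decide +kernel)) x h0 h1

/-- Certificate polynomial. -/
def lpl3 : List ITm := [⟨(-211152801057323813438415527343750000),0,0⟩,⟨842521858750842511653900146484375000,1,0⟩,⟨6804077345060836523771286010742187500,2,0⟩,⟨(-18891145577044830843806266784667968750),3,0⟩,⟨(-79064297970529380872726440429687500000),4,0⟩,⟨96059940809197168893780517578125000000,5,0⟩,⟨254240640922750257407785312500000000000,6,0⟩,⟨(-206658112813708296068968240777343750000),7,0⟩,⟨(-244396300047366815524950442649303125000),8,0⟩,⟨104600118118337688396307983974049970625,9,0⟩,⟨86659350511644757067416761750008592856,10,0⟩]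

/-- Certificate tree. -/
def tpl3 : OutT := (A (A (A (A (O l) (O l)) (A (A (O l) (A (O l) (O l))) (A (A (O l) (O l)) (A (O l) (O l))))) (A (A (A (O l) (O l)) (A (O l) (O l))) (A (A (O l) (O l)) (A (O l) (O l))))) (A (A (A (A (O l) (O l)) (A (O l) (A (O l) (O l)))) (A (A (A (O l) (O l)) (A (O l) (A (O l) (O l)))) (A (A (A (O l) (O l)) (A (O l) (O l))) (A (A (A (O l) (O l)) (A (O l) (O l))) (A (A (O l) (O l)) (A (A (O l) (O l)) (A (O l) (O l)))))))) (A (A (A (A (A (A (A (O l) (O l)) (A (O l) (O l))) (A (A (O l) (O l)) (A (O l) (O l)))) (A (A (A (O l) (O l)) (A (O l) (O l))) (A (O l) (O l)))) (A (A (A (O l) (O l)) (A (O l) (O l))) (A (A (O l) (O l)) (O l)))) (A (A (A (O l) (O l)) (A (O l) (O l))) (A (A (O l) (O l)) (A (O l) (O l))))) (A (A (A (O l) (O l)) (A (O l) (O l))) (A (A (O l) (A (O l) (O l))) (A (A (O l) (O l)) (A (O l) (A (O l) (A (O l) (A (O l) (O l)))))))))))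

theorem hpl3 (x : ℝ) (h0 : 0 ≤ x) (h1 : x ≤ 1) : evalIL lpl3 x 0 ≤ 0 :=
  uni_le 10 65536 lpl3 (by norm_num) (by norm_num) (by decide +kernel)
    (chkOut_sound (uniPb 10 65536 lpl3) tpl3 0 32768 0 32768 (by decide +kernel)) x h0 h1

/-- Certificate polynomial. -/
def lnu3 : List ITm := [⟨(-33838078379631042480468750000000000000),0,0⟩,⟨371204167038202285766601562500000000000,1,0⟩,⟨(-927717282369291782379150390625000000000),2,0⟩,⟨(-1202119425737539334297180175781250000000),3,0⟩,⟨2530057535056940187927246093750000000000,4,0⟩,⟨1536959052947154702300488281250000000000,5,0⟩,⟨(-2033925127382002059262282500000000000000),6,0⟩,⟨(-826632451254833184275872963109375000000),7,0⟩,⟨488792600094733631049900885298606250000,8,0⟩,⟨104600118118337688396307983974049970625,9,0⟩,⟨(-43329675255822378533708380875004296428),10,0⟩]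

/-- Certificate tree. -/
def tnu3 : OutT := (A (A (A (A (O l) (O l)) (A (A (O l) (O l)) (A (O l) (O l)))) (A (A (O l) (O l)) (A (O l) (O l)))) (A (A (A (O l) (O l)) (A (O l) (O l))) (A (A (A (O l) (O l)) (A (A (O l) (O l)) (A (O l) (A (O l) (O l))))) (A (A (A (A (O l) (A (O l) (O l))) (A (A (O l) (O l)) (A (O l) (O l)))) (A (A (A (O l) (O l)) (A (O l) (O l))) (A (O l) (O l)))) (A (A (A (O l) (O l)) (O l)) (A (O l) (O l)))))))

theorem hnu3 (x : ℝ) (h0 : 0 ≤ x) (h1 : x ≤ 1) : evalIL lnu3 x 0 ≤ 0 :=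
  uni_le 10 65536 lnu3 (by norm_num) (by norm_num) (by decide +kernel)
    (chkOut_sound (uniPb 10 65536 lnu3) tnu3 0 32768 0 32768 (by decide +kernel)) x h0 h1

/-- Certificate polynomial. -/
def lnl3 : List ITm := [⟨(-108110234141349792480468750000000000000),0,0⟩,⟨(-215685595840215682983398437500000000000),1,0⟩,⟨870921900167787075042724609375000000000,2,0⟩,⟨1209033316930869174003601074218750000000,3,0⟩,⟨(-2530057535056940187927246093750000000000),4,0⟩,⟨(-1536959052947154702300488281250000000000),5,0⟩,⟨2033925127382002059262282500000000000000,6,0⟩,⟨826632451254833184275872963109375000000,7,0⟩,⟨(-488792600094733631049900885298606250000),8,0⟩,⟨(-104600118118337688396307983974049970625),9,0⟩,⟨43329675255822378533708380875004296428,10,0⟩]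

/-- Certificate tree. -/
def tnl3 : OutT := (A (A (O l) (A (O l) (A (O l) (O l)))) (A (A (A (A (O l) (O l)) (A (A (O l) (O l)) (A (A (O l) (O l)) (A (O l) (O l))))) (A (A (A (A (O l) (O l)) (A (O l) (O l))) (A (O l) (O l))) (A (A (O l) (O l)) (O l)))) (A (A (A (O l) (O l)) (A (O l) (O l))) (A (A (O l) (O l)) (A (O l) (A (O l) (A (O l) (A (O l) (A (O l) (O l))))))))))

theorem hnl3 (x : ℝ) (h0 : 0 ≤ x) (h1 : x ≤ 1) : evalIL lnl3 x 0 ≤ 0 :=
  uni_le 10 65536 lnl3 (by norm_num) (by norm_num) (by decide +kernel)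
    (chkOut_sound (uniPb 10 65536 lnl3) tnl3 0 32768 0 32768 (by decide +kernel)) x h0 h1

theorem apx3 (u : ℝ) (h0 : -(913 / 2500 : ℝ) ≤ u) (h1 : u ≤ (913 / 1250 : ℝ)) :
    |((1 + u)⁻¹) ^ 3 - evalZ Ax.p3 (3 * u) / Ax.D3| ≤ Ax.e3 * |u| ^ Ax.m3 := by
  have hu : 0 < 1 + u := by norm_num at h0 ⊢; linarith
  refine apx_of_S 3 2 _ (S3 u) _ u hu ?_ ?_ ?_
  · simp only [Ax, evalZ_cons, evalZ_nil, S3]
    push_cast
    ring
  · rcases le_total 0 u with hs | hs
    · have hx := hpu3 (u / (913 / 1250 : ℝ)) (by positivity) (by rw [div_le_one (by norm_num)]; exact h1)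
      have e : evalIL lpu3 (u / (913 / 1250 : ℝ)) 0 = 78125000000000000000000000000000000000 * (S3 u - Ax.e3 * (1 + u) ^ 3) := by
        simp only [lpu3, evalIL, List.map_cons, List.map_nil, List.sum_cons, List.sum_nil, S3, Ax]
        push_cast
        ring
      rw [e] at hx
      have := cmul_nonpos (by norm_num) hx
      simp only [Ax] at this ⊢
      linarith
    · have hx := hnu3 (-u / (913 / 2500 : ℝ)) (by apply div_nonneg <;> [linarith; norm_num]) (by rw [div_le_one (by norm_num)]; linarith)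
      have e : evalIL lnu3 (-u / (913 / 2500 : ℝ)) 0 = 40000000000000000000000000000000000000000 * (S3 u - Ax.e3 * (1 + u) ^ 3) := by
        simp only [lnu3, evalIL, List.map_cons, List.map_nil, List.sum_cons, List.sum_nil, S3, Ax]
        push_cast
        ring
      rw [e] at hx
      have := cmul_nonpos (by norm_num) hx
      simp only [Ax] at this ⊢
      linarith
  · rcases le_total 0 u with hs | hs
    · have hx := hpl3 (u / (913 / 1250 : ℝ)) (by positivity) (by rw [div_le_one (by norm_num)]; exact h1)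
      have e : evalIL lpl3 (u / (913 / 1250 : ℝ)) 0 = 78125000000000000000000000000000000000 * (-S3 u - Ax.e3 * (1 + u) ^ 3) := by
        simp only [lpl3, evalIL, List.map_cons, List.map_nil, List.sum_cons, List.sum_nil, S3, Ax]
        push_cast
        ring
      rw [e] at hx
      have := cmul_nonpos (by norm_num) hx
      simp only [Ax] at this ⊢
      linarith
    · have hx := hnl3 (-u / (913 / 2500 : ℝ)) (by apply div_nonneg <;> [linarith; norm_num]) (by rw [div_le_one (by norm_num)]; linarith)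
      have e : evalIL lnl3 (-u / (913 / 2500 : ℝ)) 0 = 40000000000000000000000000000000000000000 * (-S3 u - Ax.e3 * (1 + u) ^ 3) := by
        simp only [lnl3, evalIL, List.map_cons, List.map_nil, List.sum_cons, List.sum_nil, S3, Ax]
        push_cast
        ring
      rw [e] at hx
      have := cmul_nonpos (by norm_num) hx
      simp only [Ax] at this ⊢
      linarith

/-- The quotient polynomial for `j = 4`. -/
noncomputable def S4 (u : ℝ) : ℝ :=
  (397951 / 16777216 : ℝ) * u ^ 0 + (78009 / 524288 : ℝ) * u ^ 1 + (-31163229 / 16777216 : ℝ) * u ^ 2 + (-34115071 / 4194304 : ℝ) * u ^ 3 + (162104857 / 8388608 : ℝ) * u ^ 4 + (1278647551 / 16777216 : ℝ) * u ^ 5 + (-950463625 / 16777216 : ℝ) * u ^ 6 + (-1772056583 / 8388608 : ℝ) * u ^ 7 + (-34661183 / 16777216 : ℝ) * u ^ 8 + (3201938827 / 16777216 : ℝ) * u ^ 9 + (369353093 / 4194304 : ℝ) * u ^ 10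

/-- Certificate polynomial. -/
def lpu4 : List ITm := [⟨(-63345651142299175262451171875000000),0,0⟩,⟨2891251320019364356994628906250000000,1,0⟩,⟨(-83550976059398800134658813476562500000),2,0⟩,⟨(-250591624718912233114242553710937500000),3,0⟩,⟨429128707462037545394182205200195312500,4,0⟩,⟨1237726838658954459156712341308593750000,5,0⟩,⟨(-672001468802082762201596221923828125000),6,0⟩,⟨(-1830219030741765576664475592794921875000),7,0⟩,⟨(-13073733620608832368740995048549218750),8,0⟩,⟨882124827721715376354544761805536356875,9,0⟩,⟨297289459354335224941163199688102979914,10,0⟩]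

/-- Certificate tree. -/
def tpu4 : OutT := (A (A (A (A (A (O l) (O l)) (A (O l) (O l))) (A (O l) (O l))) (A (O l) (A (O l) (O l)))) (A (A (A (A (O l) (O l)) (A (O l) (A (O l) (O l)))) (A (A (A (O l) (A (O l) (O l))) (A (A (O l) (A (O l) (O l))) (A (A (O l) (O l)) (A (O l) (O l))))) (A (A (A (A (O l) (O l)) (O l)) (A (O l) (O l))) (A (A (O l) (O l)) (O l))))) (A (A (A (A (O l) (O l)) (A (O l) (O l))) (A (O l) (O l))) (A (A (O l) (O l)) (A (O l) (A (O l) (A (O l) (A (O l) (A (O l) (O l))))))))))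

theorem hpu4 (x : ℝ) (h0 : 0 ≤ x) (h1 : x ≤ 1) : evalIL lpu4 x 0 ≤ 0 :=
  uni_le 10 65536 lpu4 (by norm_num) (by norm_num) (by decide +kernel)
    (chkOut_sound (uniPb 10 65536 lpu4) tpu4 0 32768 0 32768 (by decide +kernel)) x h0 h1

/-- Certificate polynomial. -/
def lpl4 : List ITm := [⟨(-3769553150050342082977294921875000000),0,0⟩,⟨(-14089448457583785057067871093750000000),1,0⟩,⟨71282231275483220815658569335937500000,2,0⟩,⟨244617563925464273691177368164062500000,3,0⟩,⟨(-430219570962921142784833908081054687500),4,0⟩,⟨(-1237726838658954459156712341308593750000),5,0⟩,⟨672001468802082762201596221923828125000,6,0⟩,⟨1830219030741765576664475592794921875000,7,0⟩,⟨13073733620608832368740995048549218750,8,0⟩,⟨(-882124827721715376354544761805536356875),9,0⟩,⟨(-297289459354335224941163199688102979914),10,0⟩]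

/-- Certificate tree. -/
def tpl4 : OutT := (A (A (A (O l) (A (O l) (O l))) (A (A (A (O l) (O l)) (A (A (O l) (O l)) (A (A (O l) (O l)) (A (O l) (O l))))) (A (A (A (O l) (O l)) (A (O l) (O l))) (A (O l) (O l))))) (A (A (A (A (O l) (O l)) (O l)) (A (O l) (A (O l) (O l)))) (A (A (A (O l) (O l)) (A (A (O l) (O l)) (A (O l) (O l)))) (A (A (A (A (O l) (O l)) (A (A (O l) (O l)) (A (O l) (O l)))) (A (A (A (O l) (O l)) (A (O l) (O l))) (A (A (O l) (O l)) (A (O l) (O l))))) (A (A (A (O l) (O l)) (A (O l) (O l))) (A (O l) (O l)))))))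

theorem hpl4 (x : ℝ) (h0 : 0 ≤ x) (h1 : x ≤ 1) : evalIL lpl4 x 0 ≤ 0 :=
  uni_le 10 65536 lpl4 (by norm_num) (by norm_num) (by decide +kernel)
    (chkOut_sound (uniPb 10 65536 lpl4) tpl4 0 32768 0 32768 (by decide +kernel)) x h0 h1

/-- Certificate polynomial. -/
def lnu4 : List ITm := [⟨(-32432973384857177734375000000000000000),0,0⟩,⟨(-740160337924957275390625000000000000000),1,0⟩,⟨(-10694524935603046417236328125000000000000),2,0⟩,⟨16037863982010382919311523437500000000000,3,0⟩,⟨13732118638785201452613830566406250000000,4,0⟩,⟨(-19803629418543271346507397460937500000000),5,0⟩,⟨(-5376011750416662097612769775390625000000),6,0⟩,⟨7320876122967062306657902371179687500000,7,0⟩,⟨(-26147467241217664737481990097098437500),8,0⟩,⟨(-882124827721715376354544761805536356875),9,0⟩,⟨148644729677167612470581599844051489957,10,0⟩]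

/-- Certificate tree. -/
def tnu4 : OutT := (A (A (A (A (O l) (O l)) (O l)) (A (O l) (O l))) (A (A (O l) (A (O l) (O l))) (A (A (A (O l) (O l)) (A (A (O l) (O l)) (A (A (O l) (O l)) (A (O l) (A (O l) (O l)))))) (A (A (A (A (A (O l) (O l)) (A (O l) (O l))) (A (A (O l) (O l)) (O l))) (A (A (O l) (O l)) (O l))) (A (A (O l) (O l)) (O l))))))

theorem hnu4 (x : ℝ) (h0 : 0 ≤ x) (h1 : x ≤ 1) : evalIL lnu4 x 0 ≤ 0 :=
  uni_le 10 65536 lnu4 (by norm_num) (by norm_num) (by decide +kernel)
    (chkOut_sound (uniPb 10 65536 lnu4) tnu4 0 32768 0 32768 (by decide +kernel)) x h0 h1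

/-- Certificate polynomial. -/
def lnl4 : List ITm := [⟨(-1930011212825775146484375000000000000000),0,0⟩,⟨3606898805141448974609375000000000000000,1,0⟩,⟨9124125603261852264404296875000000000000,2,0⟩,⟨(-15655524091229713516235351562500000000000),3,0⟩,⟨(-13767026270813476569114685058593750000000),4,0⟩,⟨19803629418543271346507397460937500000000,5,0⟩,⟨5376011750416662097612769775390625000000,6,0⟩,⟨(-7320876122967062306657902371179687500000),7,0⟩,⟨26147467241217664737481990097098437500,8,0⟩,⟨882124827721715376354544761805536356875,9,0⟩,⟨(-148644729677167612470581599844051489957),10,0⟩]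

/-- Certificate tree. -/
def tnl4 : OutT := (A (A (O l) (A (O l) (A (O l) (A (O l) (A (O l) (O l)))))) (A (A (A (A (A (O l) (O l)) (A (O l) (O l))) (A (A (O l) (O l)) (O l))) (A (A (O l) (O l)) (A (O l) (O l)))) (A (A (O l) (O l)) (A (A (O l) (O l)) (A (O l) (A (O l) (A (O l) (A (O l) (O l)))))))))

theorem hnl4 (x : ℝ) (h0 : 0 ≤ x) (h1 : x ≤ 1) : evalIL lnl4 x 0 ≤ 0 :=
  uni_le 10 65536 lnl4 (by norm_num) (by norm_num) (by decide +kernel)
    (chkOut_sound (uniPb 10 65536 lnl4) tnl4 0 32768 0 32768 (by decide +kernel)) x h0 h1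

theorem apx4 (u : ℝ) (h0 : -(913 / 2500 : ℝ) ≤ u) (h1 : u ≤ (913 / 1250 : ℝ)) :
    |((1 + u)⁻¹) ^ 4 - evalZ Ax.p4 (3 * u) / Ax.D4| ≤ Ax.e4 * |u| ^ Ax.m4 := by
  have hu : 0 < 1 + u := by norm_num at h0 ⊢; linarith
  refine apx_of_S 4 2 _ (S4 u) _ u hu ?_ ?_ ?_
  · simp only [Ax, evalZ_cons, evalZ_nil, S4]
    push_cast
    ring
  · rcases le_total 0 u with hs | hs
    · have hx := hpu4 (u / (913 / 1250 : ℝ)) (by positivity) (by rw [div_le_one (by norm_num)]; exact h1)
      have e : evalIL lpu4 (u / (913 / 1250 : ℝ)) 0 = 78125000000000000000000000000000000000 * (S4 u - Ax.e4 * (1 + u) ^ 4) := by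
        simp only [lpu4, evalIL, List.map_cons, List.map_nil, List.sum_cons, List.sum_nil, S4, Ax]
        push_cast
        ring
      rw [e] at hx
      have := cmul_nonpos (by norm_num) hx
      simp only [Ax] at this ⊢
      linarith
    · have hx := hnu4 (-u / (913 / 2500 : ℝ)) (by apply div_nonneg <;> [linarith; norm_num]) (by rw [div_le_one (by norm_num)]; linarith)
      have e : evalIL lnu4 (-u / (913 / 2500 : ℝ)) 0 = 40000000000000000000000000000000000000000 * (S4 u - Ax.e4 * (1 + u) ^ 4) := by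
        simp only [lnu4, evalIL, List.map_cons, List.map_nil, List.sum_cons, List.sum_nil, S4, Ax]
        push_cast
        ring
      rw [e] at hx
      have := cmul_nonpos (by norm_num) hx
      simp only [Ax] at this ⊢
      linarith
  · rcases le_total 0 u with hs | hs
    · have hx := hpl4 (u / (913 / 1250 : ℝ)) (by positivity) (by rw [div_le_one (by norm_num)]; exact h1)
      have e : evalIL lpl4 (u / (913 / 1250 : ℝ)) 0 = 78125000000000000000000000000000000000 * (-S4 u - Ax.e4 * (1 + u) ^ 4) := by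
        simp only [lpl4, evalIL, List.map_cons, List.map_nil, List.sum_cons, List.sum_nil, S4, Ax]
        push_cast
        ring
      rw [e] at hx
      have := cmul_nonpos (by norm_num) hx
      simp only [Ax] at this ⊢
      linarith
    · have hx := hnl4 (-u / (913 / 2500 : ℝ)) (by apply div_nonneg <;> [linarith; norm_num]) (by rw [div_le_one (by norm_num)]; linarith)
      have e : evalIL lnl4 (-u / (913 / 2500 : ℝ)) 0 = 40000000000000000000000000000000000000000 * (-S4 u - Ax.e4 * (1 + u) ^ 4) := by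
        simp only [lnl4, evalIL, List.map_cons, List.map_nil, List.sum_cons, List.sum_nil, S4, Ax]
        push_cast
        ring
      rw [e] at hx
      have := cmul_nonpos (by norm_num) hx
      simp only [Ax] at this ⊢
      linarith

/-- The quotient polynomial for `j = 5`. -/
noncomputable def S5 (u : ℝ) : ℝ :=
  (1331387 / 16777216 : ℝ) * u ^ 0 + (8794567 / 16777216 : ℝ) * u ^ 1 + (-99541663 / 16777216 : ℝ) * u ^ 2 + (-16804025 / 524288 : ℝ) * u ^ 3 + (358264355 / 8388608 : ℝ) * u ^ 4 + (5211788029 / 16777216 : ℝ) * u ^ 5 + (67768421 / 2097152 : ℝ) * u ^ 6 + (-14700604203 / 16777216 : ℝ) * u ^ 7 + (-10780562461 / 16777216 : ℝ) * u ^ 8 + (2653173535 / 4194304 : ℝ) * u ^ 9 + (14758190387 / 16777216 : ℝ) * u ^ 10 + (4559927211 / 16777216 : ℝ) * u ^ 11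

/-- Certificate polynomial. -/
def lpu5 : List ITm := [⟨(-426631959271617233753204345703125000000),0,0⟩,⟨16618171767040621489286422729492187500000,1,0⟩,⟨(-703173542060561943799257278442382812500000),2,0⟩,⟨(-2501303555493486518040299415588378906250000),3,0⟩,⟨2351370104696227734031528234481811523437500,4,0⟩,⟨12609175732105102924447990775108337402343750,5,0⟩,⟨958279249253708374283564184570312500000000,6,0⟩,⟨(-18978884360864808544853974211550292968750000),7,0⟩,⟨(-10165709137470091124666091247677306640625000),8,0⟩,⟨7309415869354738241994661751841544093750000,9,0⟩,⟨7424221098237116535230553379708537455703750,10,0⟩,⟨1675469255602353337544461230153948703166907,11,0⟩]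

/-- Certificate tree. -/
def tpu5 : OutT := (A (A (A (A (A (O l) (O l)) (A (O l) (O l))) (A (O l) (O l))) (A (O l) (A (O l) (O l)))) (A (A (A (A (O l) (O l)) (A (O l) (A (O l) (O l)))) (A (A (A (O l) (A (O l) (O l))) (A (A (O l) (A (O l) (O l))) (A (A (O l) (O l)) (A (O l) (O l))))) (A (A (A (A (O l) (O l)) (O l)) (A (O l) (O l))) (A (A (O l) (O l)) (O l))))) (A (A (A (A (O l) (O l)) (A (O l) (O l))) (A (O l) (O l))) (A (A (O l) (O l)) (A (O l) (A (O l) (A (O l) (A (O l) (A (O l) (O l))))))))))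

theorem hpu5 (x : ℝ) (h0 : 0 ≤ x) (h1 : x ≤ 1) : evalIL lpu5 x 0 ≤ 0 :=
  uni_le 11 65536 lpu5 (by norm_num) (by norm_num) (by decide +kernel)
    (chkOut_sound (uniPb 11 65536 lpu5) tpu5 0 32768 0 32768 (by decide +kernel)) x h0 h1

/-- Certificate polynomial. -/
def lpl5 : List ITm := [⟨(-31425401175511069595813751220703125000000),0,0⟩,⟨(-132941796775266993790864944458007812500000),1,0⟩,⟨533247990648544859141111373901367187500000,2,0⟩,⟨2377189932742149239405989646911621093750000,3,0⟩,⟨(-2396696399725016108188778162002563476562500),4,0⟩,⟨(-12615796997282908330144881844520568847656250),5,0⟩,⟨(-958279249253708374283564184570312500000000),6,0⟩,⟨18978884360864808544853974211550292968750000,7,0⟩,⟨10165709137470091124666091247677306640625000,8,0⟩,⟨(-7309415869354738241994661751841544093750000),9,0⟩,⟨(-7424221098237116535230553379708537455703750),10,0⟩,⟨(-1675469255602353337544461230153948703166907),11,0⟩]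

/-- Certificate tree. -/
def tpl5 : OutT := (A (A (A (O l) (O l)) (A (A (A (O l) (O l)) (A (A (O l) (O l)) (A (O l) (O l)))) (A (A (A (O l) (O l)) (O l)) (A (O l) (O l))))) (A (A (A (A (O l) (O l)) (O l)) (A (O l) (A (O l) (O l)))) (A (A (A (O l) (O l)) (A (A (O l) (O l)) (A (O l) (O l)))) (A (A (A (A (O l) (O l)) (A (A (O l) (O l)) (A (O l) (O l)))) (A (A (A (O l) (O l)) (A (O l) (O l))) (A (A (O l) (O l)) (A (O l) (O l))))) (A (A (A (O l) (O l)) (A (O l) (O l))) (A (O l) (O l)))))))

theorem hpl5 (x : ℝ) (h0 : 0 ≤ x) (h1 : x ≤ 1) : evalIL lpl5 x 0 ≤ 0 :=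
  uni_le 11 65536 lpl5 (by norm_num) (by norm_num) (by decide +kernel)
    (chkOut_sound (uniPb 11 65536 lpl5) tpl5 0 32768 0 32768 (by decide +kernel)) x h0 h1

/-- Certificate polynomial. -/
def lnu5 : List ITm := [⟨(-873742252588272094726562500000000000000000),0,0⟩,⟨(-17017007889449596405029296875000000000000000),1,0⟩,⟨(-360024853535007715225219726562500000000000000),2,0⟩,⟨640333710206332548618316650390625000000000000,3,0⟩,⟨300975373401117149956035614013671875000000000,4,0⟩,⟨(-806987246854726587164671409606933593750000000),5,0⟩,⟨30664935976118667977074053906250000000000000,6,0⟩,⟨303662149773836936717663587384804687500000000,7,0⟩,⟨(-81325673099760728997328729981418453125000000),8,0⟩,⟨(-29237663477418952967978647007366176375000000),9,0⟩,⟨14848442196474233070461106759417074911407500,10,0⟩,⟨(-1675469255602353337544461230153948703166907),11,0⟩]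

/-- Certificate tree. -/
def tnu5 : OutT := (A (A (A (A (O l) (O l)) (O l)) (A (O l) (O l))) (A (A (A (O l) (O l)) (A (O l) (A (O l) (O l)))) (A (A (A (O l) (A (O l) (O l))) (A (A (O l) (A (O l) (O l))) (A (A (O l) (O l)) (A (A (O l) (O l)) (A (O l) (O l)))))) (A (A (A (A (A (O l) (O l)) (A (O l) (O l))) (A (A (O l) (O l)) (A (O l) (O l)))) (A (A (O l) (O l)) (A (O l) (O l)))) (A (A (O l) (O l)) (A (O l) (O l)))))))

theorem hnu5 (x : ℝ) (h0 : 0 ≤ x) (h1 : x ≤ 1) : evalIL lnu5 x 0 ≤ 0 :=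
  uni_le 11 65536 lnu5 (by norm_num) (by norm_num) (by decide +kernel)
    (chkOut_sound (uniPb 11 65536 lnu5) tnu5 0 32768 0 32768 (by decide +kernel)) x h0 h1

/-- Certificate polynomial. -/
def lnl5 : List ITm := [⟨(-64359221607446670532226562500000000000000000),0,0⟩,⟨136132399897873401641845703125000000000000000,1,0⟩,⟨273022971212054967880249023437500000000000000,2,0⟩,⟨(-608560622781990205287933349609375000000000000),3,0⟩,⟨(-306777139164802061848163604736328125000000000),4,0⟩,⟨807411007826106133129272438049316406250000000,5,0⟩,⟨(-30664935976118667977074053906250000000000000),6,0⟩,⟨(-303662149773836936717663587384804687500000000),7,0⟩,⟨81325673099760728997328729981418453125000000,8,0⟩,⟨29237663477418952967978647007366176375000000,9,0⟩,⟨(-14848442196474233070461106759417074911407500),10,0⟩,⟨1675469255602353337544461230153948703166907,11,0⟩]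

/-- Certificate tree. -/
def tnl5 : OutT := (A (A (O l) (A (O l) (A (O l) (A (O l) (A (O l) (O l)))))) (A (A (A (A (A (O l) (O l)) (A (A (O l) (O l)) (O l))) (A (A (O l) (O l)) (A (O l) (O l)))) (A (A (O l) (O l)) (A (O l) (O l)))) (A (A (A (O l) (O l)) (A (O l) (O l))) (A (A (O l) (O l)) (A (A (O l) (O l)) (A (O l) (A (O l) (A (O l) (A (O l) (O l))))))))))

theorem hnl5 (x : ℝ) (h0 : 0 ≤ x) (h1 : x ≤ 1) : evalIL lnl5 x 0 ≤ 0 :=
  uni_le 11 65536 lnl5 (by norm_num) (by norm_num) (by decide +kernel)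
    (chkOut_sound (uniPb 11 65536 lnl5) tnl5 0 32768 0 32768 (by decide +kernel)) x h0 h1

theorem apx5 (u : ℝ) (h0 : -(913 / 2500 : ℝ) ≤ u) (h1 : u ≤ (913 / 1250 : ℝ)) :
    |((1 + u)⁻¹) ^ 5 - evalZ Ax.p5 (3 * u) / Ax.D5| ≤ Ax.e5 * |u| ^ Ax.m5 := by
  have hu : 0 < 1 + u := by norm_num at h0 ⊢; linarith
  refine apx_of_S 5 2 _ (S5 u) _ u hu ?_ ?_ ?_
  · simp only [Ax, evalZ_cons, evalZ_nil, S5]
    push_cast
    ring
  · rcases le_total 0 u with hs | hs
    · have hx := hpu5 (u / (913 / 1250 : ℝ)) (by positivity) (by rw [div_le_one (by norm_num)]; exact h1)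
      have e : evalIL lpu5 (u / (913 / 1250 : ℝ)) 0 = 195312500000000000000000000000000000000000 * (S5 u - Ax.e5 * (1 + u) ^ 5) := by
        simp only [lpu5, evalIL, List.map_cons, List.map_nil, List.sum_cons, List.sum_nil, S5, Ax]
        push_cast
        ring
      rw [e] at hx
      have := cmul_nonpos (by norm_num) hx
      simp only [Ax] at this ⊢
      linarith
    · have hx := hnu5 (-u / (913 / 2500 : ℝ)) (by apply div_nonneg <;> [linarith; norm_num]) (by rw [div_le_one (by norm_num)]; linarith)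
      have e : evalIL lnu5 (-u / (913 / 2500 : ℝ)) 0 = 400000000000000000000000000000000000000000000 * (S5 u - Ax.e5 * (1 + u) ^ 5) := by
        simp only [lnu5, evalIL, List.map_cons, List.map_nil, List.sum_cons, List.sum_nil, S5, Ax]
        push_cast
        ring
      rw [e] at hx
      have := cmul_nonpos (by norm_num) hx
      simp only [Ax] at this ⊢
      linarith
  · rcases le_total 0 u with hs | hs
    · have hx := hpl5 (u / (913 / 1250 : ℝ)) (by positivity) (by rw [div_le_one (by norm_num)]; exact h1)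
      have e : evalIL lpl5 (u / (913 / 1250 : ℝ)) 0 = 195312500000000000000000000000000000000000 * (-S5 u - Ax.e5 * (1 + u) ^ 5) := by
        simp only [lpl5, evalIL, List.map_cons, List.map_nil, List.sum_cons, List.sum_nil, S5, Ax]
        push_cast
        ring
      rw [e] at hx
      have := cmul_nonpos (by norm_num) hx
      simp only [Ax] at this ⊢
      linarith
    · have hx := hnl5 (-u / (913 / 2500 : ℝ)) (by apply div_nonneg <;> [linarith; norm_num]) (by rw [div_le_one (by norm_num)]; linarith)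
      have e : evalIL lnl5 (-u / (913 / 2500 : ℝ)) 0 = 400000000000000000000000000000000000000000000 * (-S5 u - Ax.e5 * (1 + u) ^ 5) := by
        simp only [lnl5, evalIL, List.map_cons, List.map_nil, List.sum_cons, List.sum_nil, S5, Ax]
        push_cast
        ring
      rw [e] at hx
      have := cmul_nonpos (by norm_num) hx
      simp only [Ax] at this ⊢
      linarith

theorem hAx : Ax.OK (-(913 / 2500 : ℝ)) ((913 / 1250 : ℝ)) where
  e10 := by simp only [Ax]; norm_num
  e20 := by simp only [Ax]; norm_num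
  e30 := by simp only [Ax]; norm_num
  e40 := by simp only [Ax]; norm_num
  e50 := by simp only [Ax]; norm_num
  h1 := fun u a b => by simpa using apx1 u a b
  h2 := apx2
  h3 := apx3
  h4 := apx4
  h5 := apx5

end Vale.Agent.P154.SP
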