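import Vale.Agent.P154.SP.Data
import Vale.Agent.P154.Check3

namespace Vale.Agent.P154.SP

open Cert

/-- Chart (0, 0). -/
def P00 : Pb := chartPb false false Nd w G [(2, 0), (0, 2)]

/-- Chart (0, 1). -/
def P01 : Pb := chartPb false true Nd w G [(2, 0), (0, 2)]

/-- Chart (1, 0). -/
def P10 : Pb := chartPb true false Nd w G [(2, 0), (0, 2)]

/-- Chart (1, 1). -/
def P11 : Pb := chartPb true true Nd w G [(2, 0), (0, 2)]

/-- The offset. -/
def KK : ℕ := 1081947199765842424529591879509026010150599323721976877318063532086628152436172512203606540057921920808293160946190599534351047801861499980289103827892100253508375928829962412377562148201321351276593628996016513851695161943555198441141036848674890703850575013678567420592128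

end Vale.Agent.P154.SP
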