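import Vale.Agent.P154.SP.Charts

set_option maxRecDepth 100000

namespace Vale.Agent.P154.SP

open Cert InT OutT

/-- Certificate tree. -/
def tr00_r0 : OutT :=
(A (A (A (A (A (A (O (c (c (c (c (c z (c l l)) (c l l)) (d (c l l) (c l (c l l)))) (d (d (c l l) (c l l)) (c (d (c l l) (c l (c l l))) (d (d l (c l l)) (c (c l (c l l)) (d (c l l) (c l l))))))) (c (d (d (d l l) (d (c l l) (c l (c l l)))) (c (d (d (c l l) (c l (c l l))) (c (d (c l l) (c l l)) (d (c l l) l))) (d (d (c l (c l k)) (c (c l l) (c l l))) (c (d l l) (c l l))))) (d (d k (d (d k (c k k)) (c k k))) (d (c (d (c k k) (c l l)) (d k (c k k))) (c (c (c l l) l) (c l l))))))) (O (c (c (c (c (c (c l l) l) (c l l)) (d (c l l) (c l l))) (d (d (c l l) (c l l)) (c (d (c l l) (c l (c l l))) (d (d l (c l l)) (c (c l (c l l)) (d (c l l) (c l l))))))) (c (d (d (d l l) (d (c l l) (c l (c l l)))) (c (d (d (c l l) (c l (c l l))) (c (d (c l l) (c l l)) (d (c l l) l))) (d (d (c l (c l k)) (c (c l l) (c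 l l))) (c (d l l) (c l l))))) (d (d k (d (d k (c k k)) (c k k))) (d (c (d (c k k) (c l l)) (d k (c k k))) (c (c (c l l) l) (c l l)))))))) (O (c (c (c (c (c (c l l) l) (c l l)) (d (c l l) (c l l))) (d (d (c l l) (c l l)) (c (d l (c l (c l l))) (d (d l (c l l)) (c (c l (c l l)) (d (c l l) (c l l))))))) (c (d (d (d l l) (d (c l l) (c l (c l l)))) (c (d (d (c l l) (c l (c l l))) (c (d (c l l) (c l l)) (d (c l l) l))) (d (d (c l (c l k)) (c (c l l) (c l l))) (c (d l l) (c l l))))) (d (d k (d (d k (c k k)) (c k k))) (d (c (d (c k k) (c l l)) (d k (c k k))) (c (c (c l l) l) (c l l)))))))) (A (O (c (c (c (c l l) (d (c l l) (c l l))) (d (d (c l l) (c l l)) (c (c l l) (d (c l l) (c l (c l l)))))) (c (d (d (c l l) (d l (c l l))) (c (d (c l (d l l)) (c (d l l) (d l l))) (d (d (c l l) (c l l)) (c (c l l) (c l l))))) (d (d k (d (d k (c k k)) (c k k))) (d (c (d (c k k) (c l l)) (d k (c k k))) (c (c l l) (c l l))))))) (O (c (c (c l (c l l)) (d (d (c l l) (c l l))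 (c l (c l (d l l))))) (c (d (d (c l l) (d l (c l l))) (c (d (c l l) (c (c l l) (c l l))) (d (d (c l l) (c l l)) (c (c l l) (c l l))))) (d (d k (d (c k k) (c k k))) (d (c (d (c k k) (c l l)) (d k l)) (c (c l l) (c l l))))))))) (A (O (c (c (c l l) (d (d (c l l) (c l l)) (c l (d l (c l l))))) (c (d (d (c l l) (d l l)) (c (d (c l l) (c l (c l l))) (d (d l (c l l)) (c (c l l) (c l l))))) (d (d k (d (c k k) (c k k))) (d (c (d (c k k) (c l l)) (d k l)) (c (c l l) (c l l))))))) (O (c (c (c l l) (d (c l l) (c l l))) (c (d (d (c l l) (c l l)) (c (d l (c l l)) (d (c l l) (c l l)))) (d (d k (d l (c k k))) (d (c (d l l) (d k l)) (c (c l l) (c l l))))))))) (A (O (c (c (c (c l l) (c l l)) (c (c l l) (d l (c l l)))) (c (d (d (c l l) (c l l)) (d (c l (c l l)) (c (c l l) (c l l)))) (d (d k (d (c k k) (c k k))) (d (c (d l l) (d k l)) (c (c l l) (c l l))))))) (O (c (c l (c l l)) (c (d (d l l) (d l (c l l))) (d (d k (d (c k k) (c k k))) (d (c (c l l) (d k l)) (c l l))))))))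 (A (B (A (O (c (c l l) (d (d (c l k) (c l l)) (c (c l l) (d (c l l) (c l l)))))) (O (c (c l l) (d (d (c l k) (c l l)) (c l (d (c l l) (c l l))))))) (A (O (c l (c (d l l) (d (d k l) (d (c l l) (c l l)))))) (O (c l (c (c l l) (d (d k l) (d l (c l l)))))))) (B (A (O (c l (d (c l (c k k)) (c l (d (d l l) (c l l)))))) (B (O (c l (d (c l (c k k)) (c l (d (d l l) (c l l)))))) (O (c l (d (c l (d k (d (c k k) l))) (c l (d (c l l) (c l l)))))))) (A (O (c l (c (c l l) (d (d k (d l (c k k))) (d (d l l) (c l l)))))) (B (O (c l (d (c l (d k (d l l))) (c l (d (d l l) (c l l)))))) (O (c l (d (d l (c l (c k k))) (c l (d (d l l) (c l (c l l))))))))))))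

theorem s00_r0 : Sound P00 0 16384 0 32768 :=
  chkOut3_sound P00 KK tr00_r0 0 16384 0 32768 (by decide +kernel)

end Vale.Agent.P154.SP
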