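import Vale.Agent.P154.SP.Charts

set_option maxRecDepth 100000

namespace Vale.Agent.P154.SP

open Cert InT OutT

/-- Certificate tree. -/
def tr00_r11 : OutT :=
(B (A s s) (A (B (A (B s (A (B s (A s s)) s)) (B s (A s s))) (A (B (A (B (A (O (c l (d (c l (d k (c k k))) (c l (d (d (d l l) l) (c l l)))))) (B s (O (c l (d (d l (d l l)) (d (c l l) (c l l))))))) (A (O (c l (d (c l l) (d l (c l l))))) (O (c l (d (d l (d l l)) (d (d l l) (c l (c l l)))))))) (B (A s s) (A (O (c l (d (c l (d k (d (c k k) (c k k)))) (c l (d (d (d (d (c l k) (d l l)) (d (c l k) l)) (d (c l l) l)) (d (d l l) (c l (c l l)))))))) (B (O (c l (d (d (d l (d l (c l k))) (c l (d (d k l) (d l l)))) (d (d (c l l) (c l l)) (c l (c l l)))))) (O (c l (d (d l l) (d (c l l) (c l l))))))))) (A (B (A (O (c l (d l (c l l)))) (O (c l (d l (d l (c l l)))))) (A (O (c l (d l l))) (O (c l (d l (c l l)))))) (B (A (O (c l (d (c l l) (d (c l l) (c l (d l l)))))) (B (O (c l (d l (d l l)))) (O (c l (d l (c l l))))))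 (A (O (c l (d l (d l (c l l))))) (O (c l (d l (d (c l l) (c l (d l (c l l))))))))))) (B (A (B s (A (B s (O (c l (d (d l (d l (c l l))) (d (d (c l l) (c l l)) (c l (d l l))))))) s)) (B s (A s s))) (A (B (A (B (O (c l (d (c l l) (d (c l l) (c l l))))) (O (c l (d l (d l l))))) (B (O (c l (d (d l (d l l)) (d (d (c l l) (c l l)) (c l (d l (c l l))))))) (O (c l (d l (d (c l l) (c l (d l l)))))))) (A (B (O (c l (d l (d l l)))) (O (c l (d l (c l l))))) (B (O (c l (d l (d l (c l l))))) (O (c l (d l (d l l))))))) (B (A (B (A s s) (A (O (c l (d l l))) (O (c l (d l l))))) (B s (A (O (c l (d l l))) (O (c l (d l l)))))) (A (B (A (O (c l l)) (O (c l l))) (O (c l (d l (d l (d l (c l l))))))) (B (A (O (c l l)) (O (c l (c l l)))) (A (O (c l l)) (O (c l l)))))))))) (B (A s s) (A (B (A (B s (A s s)) s) (A (B (A (B s (A s s)) (B s (A s s))) (A (B (A (O (c l (c l l))) (O (c l (c l l)))) (A (O (c l l)) (O (c l l)))) (B (A (O (c l (d l l))) (O (c l (d l l)))) (A (O (c l l)) (O (c l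 l)))))) (B (A (B s (A s s)) s) (A (B (A (O (c l (d l l))) (O (c l (d l l)))) (A (O (c l l)) (O (c l (c l l))))) (B (A (O (c l (d l (c l l)))) (O (c l (d l (d l l))))) (A (O (c l (d l l))) (O (c l (d l l))))))))) (B (A s s) (A (B (A s s) (A (B (A s s) (A (O (c l (d l l))) (O (c l (d l (c l l)))))) (B (A s s) (A (O (c l (d l (d l (c l l))))) (O (c l (d l (d l (d l (c l l)))))))))) (B (A s s) (A (B (A s s) (A (O (c l (d l (d l (d (c l l) (c l (d l (c l l)))))))) (B (O (c l (d l l))) (O (c l (c l l)))))) (B (A s s) (A (B (O (c l (d l (c l l)))) (O (c l (c l l)))) (B (O (c l (d l (d l l)))) (O (c l (d l l))))))))))))))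

theorem s00_r11 : Sound P00 49152 8192 0 32768 :=
  chkOut3_sound P00 KK tr00_r11 49152 8192 0 32768 (by decide +kernel)

end Vale.Agent.P154.SP
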