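import Vale.Agent.P154.SP.Charts

set_option maxRecDepth 100000

namespace Vale.Agent.P154.SP

open Cert InT OutT

/-- Certificate tree. -/
def tr01_r0 : OutT :=
(A (A (A (A (A (A (O (c (c (c (c (c z (c l l)) (c l l)) (c (c l l) (c l l))) (c (d (c l l) (c l l)) (d (c l l) (c l l)))) (c (d (d (c l k) (c l k)) (c l k)) k))) (O (c (c (c (c (c (c l l) (c l l)) (c l l)) (c (c l l) (c l l))) (c (d (c l l) (c l l)) (d (c l l) (c l l)))) (c (d (d (c l k) (c l k)) (c l k)) k)))) (O (c (c (c (c (c (c l l) l) (c l l)) (c (c l l) (c l l))) (c (d (c l l) (c l l)) (d (c l l) (c l l)))) (c (d (d (c l k) (c l k)) (c l k)) k)))) (A (O (c (c (c (c l l) (c l (c l l))) (c (d (c l l) (c l l)) (d (c l l) (c l l)))) (c (d (d (c l k) (c l k)) (c l k)) k))) (O (c (c (c l (c l l)) (c (d (c l l) (c l l)) (d (c l l) (c l l)))) (c (d (d (c l k) (c l k)) (c l k)) k))))) (A (O (c (c (c l (c l l)) (c (d (c l l) (c l l)) (d (c l l) (c l l)))) (c (d (d (c l k) (c l k))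 (c l k)) k))) (O (c (c (c l l) (c (c l l) (d l l))) (c (d (d (c l k) (c l k)) (c l k)) k))))) (A (O (c (c (c (c l (c l l)) (c (c l l) l)) (c (c (c l l) (c l l)) (d (c l l) (c l l)))) (c (d (d (c l k) (c l k)) (c (c l k) k)) k))) (O (c (c (c l l) (c (c l l) (d l (c l l)))) (c (d (d (c l k) (c l k)) (c (c l k) k)) k))))) (A (B (O (c (c (c l (c l (d l l))) (c (d l (c (c l l) l)) (d (c l l) (c (c l l) (c l l))))) (c (d (c (d l (c l k)) k) (c (c l k) k)) k))) (O (c (c (c l l) (c (c l (c l l)) (d (c l l) (c (c l l) (c l l))))) (c (d (c (d (c l l) (c l k)) k) (c (c (c l l) k) k)) k)))) (B (A (O (c (c l l) (c (d l (c l k)) k))) (O (c (c l (c l l)) (c (d (d l (c l k)) (c (c l k) k)) k)))) (A (O (c l (c (d l (c l k)) k))) (O (c l (c (d l (c l k)) k)))))))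

theorem s01_r0 : Sound P01 0 16384 0 32768 :=
  chkOut3_sound P01 KK tr01_r0 0 16384 0 32768 (by decide +kernel)

end Vale.Agent.P154.SP
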