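import Vale.Agent.P154.SP.Charts

set_option maxRecDepth 100000

namespace Vale.Agent.P154.SP

open Cert InT OutT

/-- Certificate tree. -/
def tr01_r100000 : OutT :=
(O (c (c l (c (d l (c l (c l (c l l)))) (d l (c (c (c l l) (c l l)) (c (c l l) l))))) (c (d (c (c l l) k) (c (c (d l (c l k)) k) k)) k)))

theorem s01_r100000 : Sound P01 32768 2048 0 8192 :=
  chkOut3_sound P01 KK tr01_r100000 32768 2048 0 8192 (by decide +kernel)

end Vale.Agent.P154.SP
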