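import Vale.Agent.P154.SP.Charts

set_option maxRecDepth 100000

namespace Vale.Agent.P154.SP

open Cert InT OutT

/-- Certificate tree. -/
def tr01_r10001 : OutT :=
(A (O (c (c l l) (c (d (c l k) (c l k)) k))) (B (A (O (c (c l (c l l)) (c (d l (c l k)) k))) (B (A (O (c (c l (c (c l l) (c (c l l) (c l l)))) (c (d l (c (c l k) k)) k))) (B (A (B (A (B (A (O (c (c (c l l) (c (d l (c l l)) (d l (c l l)))) (c (d l (c (c l k) k)) k))) s) (O (c (c (c l l) (c (d l (c l (c l l))) (d l (c (c l l) l)))) (c (d l (c (c l k) k)) k)))) s) (A (O (c (c (c l l) (c (c l l) (c (c l l) (c l l)))) (c (d l (c (c l k) k)) k))) (B (A s s) (A (O (c (c (c l l) (c (c l (d l l)) (c (d l l) (c l l)))) (c (d l (c (c l k) k)) k))) s)))) s) (A (O (c (c (c l l) (c (d l (c l l)) (d l (c l l)))) (c (d l (c (c l k) k)) k))) (B (A s s) (A (O (c (c (c l l) (c (d l (c (c l l) (c (c l l) (c l l)))) (d l (c (c l l) l)))) (c (d l (c (c l k) k)) k))) s))))) (A (O (c (c l l) (c (d l (c l k)) k)))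 (B (A (O (c (c l (c l l)) (c (d l (c l k)) k))) (B (A (O (c (c l (c l (c l l))) (c (d l (c l k)) k))) (B s (O (c (c (c l l) (c (c l (d l l)) (d l (c l l)))) (c (d l (c (c l k) k)) k))))) (O (c (c l (c (c l l) (c (c l l) l))) (c (d l (c (c l k) k)) k))))) (O (c (c l (c l (c l l))) (c (d l (c l k)) k))))))) (A (O (c l (c (d l (c l k)) k))) (O (c (c l (c l l)) (c (d l (c (c l k) k)) k))))))

theorem s01_r10001 : Sound P01 32768 4096 16384 8192 :=
  chkOut3_sound P01 KK tr01_r10001 32768 4096 16384 8192 (by decide +kernel)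

end Vale.Agent.P154.SP
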