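import Vale.Agent.P154.SP.Charts

set_option maxRecDepth 100000

namespace Vale.Agent.P154.SP

open Cert InT OutT

/-- Certificate tree. -/
def tr01_r1001 : OutT :=
(B (A s s) (A (B (A (B (A s s) (A (B (A (B s (A s s)) s) (A (B (A (O (c (c l (c (c l l) (c (c l l) l))) (c (d l (c (c l k) k)) k))) s) (O (c (c (c l l) (c (d l l) (c (c l l) (c l l)))) (c (d l (c (c l k) k)) k)))) s)) s)) s) (A (B (A (B (A (O (c (c l (c l (c l l))) (c (d l (c l k)) k))) (B (A (O (c (c (c l l) (c (d l (c l l)) (c (d l l) (c l l)))) (c (d l (c (c l k) k)) k))) s) (O (c (c (c l l) (c (d l (c l l)) (c (d l l) (c l l)))) (c (d l (c (c l k) k)) k))))) (O (c (c l (c l (c l l))) (c (d l (c l k)) k)))) (B s (A (B s (O (c (c (c l l) (c (d l (c l l)) (c (d l l) (c l l)))) (c (d l (c (c l k) k)) k)))) s))) (A (O (c (c l l) (c (d l (c l k)) k))) (B (A (O (c (c l (c l (c l l))) (c (c (c l l) k) k))) (B s (O (c (c l (c (c l l) (c (c l l) l))) (c (d l (c l k)) k))))) (O (c (c l (c l l)) (c (d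 l (c l k)) k)))))) (B s (A (B s (A (B s (O (c (c l (c l (c l l))) (c (c (c l l) k) k)))) s)) s)))) (B s (A s s))))

theorem s01_r1001 : Sound P01 40960 4096 0 16384 :=
  chkOut3_sound P01 KK tr01_r1001 40960 4096 0 16384 (by decide +kernel)

end Vale.Agent.P154.SP
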