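import Vale.Agent.P154.SP.Charts

set_option maxRecDepth 100000

namespace Vale.Agent.P154.SP

open Cert InT OutT

/-- Certificate tree. -/
def tr01_r11 : OutT :=
(B (A s s) (A (B (A (B s (A (B s (A s s)) s)) (B s (A s s))) (A (B (A (B (O (c l (c (d l (c l k)) k))) (O (c l (c (d l (c l k)) k)))) (B (A s s) (A (O (c l (c l k))) (O (c l (c l k)))))) (A (B (A (O (c l (d l (c l k)))) (O (c l (d l (c l k))))) (A (O (c l (d l (c l k)))) (O (c l (d l (c l k)))))) (B (A (O (c l (d l (c l k)))) (O (c l (c l k)))) (A (O (c l (d l (c l k)))) (O (c l (d l (c l k)))))))) (B (A (B s (A (O (c l (c l k))) s)) (B s (A s s))) (A (B (A (O (c l (c l k))) (O (c l (c l k)))) (A (O (c l (d l (c l k)))) (O (c l (c l k))))) (B (A (O (c l (c l k))) (B s (O (c l (c l k))))) (A (O (c l (c l k))) (B (O (c l (d (d l l) (c l k)))) (O (c l (d l (c l k))))))))))) (B (A s s) (A (B (A (B s (A s s)) s) (A (B (A (B s (O (c l (c l k)))) (B s (O (c l (c l k))))) (A (B (O (c l (c l k))) (O (c l (d l (c l k)))))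 (B (O (c l (c l k))) (O (c l (c l k)))))) (B (A (B s (A s s)) s) (A (B (A (O (c l (d l l))) (O (c l (d l (c l k))))) (A (O (c l (c l k))) (O (c l (c l k))))) (B (A (O (c l (d l (c l k)))) (O (c l (d l (c l k))))) (A (O (c l (d l l))) (O (c l (d l l))))))))) (B (A s s) (A (B (A s s) (A (B (A s s) (A (O (c l (d l (c l k)))) (O (c l (d l (c l k)))))) (B (A s s) (A (O (c l (d l (c l k)))) (O (c l (d l (c l k)))))))) (B (A s s) (A (B (A s s) (A (O (c l (d l (c l k)))) (O (c l (d l (c l k)))))) (B (A s s) (A (O (c l (d l (c l k)))) (O (c l (d l (c l k))))))))))))))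

theorem s01_r11 : Sound P01 49152 8192 0 32768 :=
  chkOut3_sound P01 KK tr01_r11 49152 8192 0 32768 (by decide +kernel)

end Vale.Agent.P154.SP
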