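import Vale.Agent.P154.SP.Charts

set_option maxRecDepth 100000

namespace Vale.Agent.P154.SP

open Cert InT OutT

/-- Certificate tree. -/
def tr10_r : OutT :=
(A (A (A (A (A (A (A (O (c (c (c (c (c z (c l l)) (c l l)) (d (c l l) (c l (c l l)))) (d (d (c l l) (c l l)) (c (d (c l l) (c l (c l l))) (d (d l (c l l)) (c (c l (c l l)) (d (c l l) (c l l))))))) (c (d (d (d l l) (d (c l l) (c l (c l l)))) (c (d (d (c l l) (c l (c l l))) (c (d (c l l) (c l l)) (d (c l l) l))) (d (d (c l (c l k)) (c (c l l) (c l l))) (c (d l l) (c l l))))) (d (d k (d (d k (c k k)) (c k k))) (d (c (d (c k k) (c l l)) (d k (c k k))) (c (c (c l l) l) (c l l))))))) (O (c (c (c (c (c (c l l) l) (c l l)) (d (c l l) (c l l))) (d (d (c l l) (c l l)) (c (d (c l l) (c l (c l l))) (d (d l (c l l)) (c (c l (c l l)) (d (c l l) (c l l))))))) (c (d (d (d l l) (d (c l l) (c l (c l l)))) (c (d (d (c l l) (c l (c l l))) (c (d (c l l) (c l l)) (d (c l l) l))) (d (d (c l (c l k)) (c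 (c l l) (c l l))) (c (d l l) (c l l))))) (d (d k (d (d k (c k k)) (c k k))) (d (c (d (c k k) (c l l)) (d k (c k k))) (c (c (c l l) l) (c l l)))))))) (O (c (c (c (c (c (c l l) l) (c l l)) (d (c l l) (c l l))) (d (d (c l l) (c l l)) (c (d l (c l l)) (d (d l (c l l)) (c (c l (c l l)) (d (c l l) (c l l))))))) (c (d (d (d l l) (d (c l l) (c l (c l l)))) (c (d (d (c l l) (c l (c l l))) (c (d (c l l) (c l l)) (d (c l l) l))) (d (d (c l (c l k)) (c (c l l) (c l l))) (c (d l l) (c l l))))) (d (d k (d (d k (c k k)) (c k k))) (d (c (d (c k k) (c l l)) (d k (c k k))) (c (c (c l l) l) (c l l)))))))) (O (c (c (c (c (c (c (c l (c l l)) (d l (c l l))) (c (c l l) l)) (c l l)) (c (c l l) (d l l))) (d (d (c l l) (c l l)) (c (d (c l l) (c l l)) (d (d l l) (c (d l (c l l)) (d (c l l) (c l l))))))) (c (d (d (d l l) (d (c l l) (c l (c l l)))) (c (d (d (c l l) (c l (c l l))) (c (d (c l l) (c l l)) (d (c l l) l))) (d (d (c l (c l k)) (c (c l l) (c l l))) (c (d l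 l) (c l l))))) (d (d k (d (d k (c k k)) (c k k))) (d (c (d (c k k) (c l l)) (d k (c k k))) (c (c (c l l) l) (c l l)))))))) (A (O (c (c (c (c l l) (c l l)) (d (c l (d l l)) (c l (d l (c l l))))) (c (d (d (c l l) (d l (c l l))) (c (d (c l l) (c (c l l) (c l l))) (d (d l (c l l)) (c (c l l) (c l l))))) (d (d k (d (c k k) (c k k))) (d (c (d (c k k) (c l l)) (d k l)) (c (c l l) (c l l))))))) (O (c (c (c l l) (c (c l l) (d l l))) (c (d (d (c l l) (c l l)) (c (d l (c l l)) (d (d l l) (c l l)))) (d (d k (d (c k k) (c k k))) (d (c (d l l) (d k l)) (c (c l l) (c l l))))))))) (A (B (O (c (c (c l l) (c l (d l l))) (c (d (d l l) (d (c l (c l l)) (c l (c l l)))) (d (d k (d l (c k k))) (d (c (d l l) (d k l)) (c (c l l) (c l l))))))) (O (c (c (c (c l l) (c l l)) (c (d l l) (d l (c l l)))) (c (d (d (c l l) l) (d (c l (c l l)) (c (c l l) (c l l)))) (d (d k (d (c k k) (c k k))) (d (c (d l l) (d k l)) (c (c l l) (c l l)))))))) (B (O (c (c (c l l) (c l l)) (d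 (c (c l l) (d k (d l l))) (c (d l (c l l)) (d (d (c l k) (c l l)) (c l l)))))) (O (c (c (c (c l l) (d l l)) (d (c l l) (c l l))) (d (c (d l l) (d k (d l (c k k)))) (c (d (c l l) (c l l)) (d (c (c l l) (d k l)) (c l l))))))))) (A (B (A (O (c (c l (c l l)) (d (c l (d k (d l l))) (c (d l l) (d (d l l) (c l l)))))) (O (c (c l l) (d (c l (d k (d (c k k) (c k k)))) (c (c l l) (d (d l l) (c l l))))))) (A (O (c (c (c (c l l) (d l l)) (d (c l l) (c l l))) (d (c (d l l) (d k (d (c k k) (c k k)))) (c (d l (c l l)) (d (d (c l k) (c l l)) (c l l)))))) (O (c (c (c (c l l) (c l l)) (d (c l l) l)) (d (c (d (c l l) (c l l)) (d k (c k k))) (c (d l (c l l)) (d (d (d (c l k) (c l k)) (c l l)) (c l (c l l))))))))) (B (A (O (c (c l l) (d (c (c l l) (c k k)) (c (c l l) (d (d (d (c l k) l) (c l l)) (c l (c l l))))))) (B (O (c l (d (c l (c k k)) (c l (d (d (d (c l k) l) l) (c l l)))))) (O (c (c l l) (d (c (d l l) (c k k)) (c l (d (c l (d k (d (c k k) l))) (c l (c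 l l))))))))) (A (O (c (c (c l l) (d (c l l) l)) (d (c (d (c (c l l) (c k k)) (c l (d (d (c l k) l) l))) (d k (c k k))) (c (d (c l l) (c l l)) (d (c (d (d (c k k) l) l) (d k (c k k))) (c (c l l) (d (c l l) l))))))) (B (A (O (c (c l l) (d (c l (d k (c k k))) (c l (d l l))))) (O (c (c l l) (d (c (c l l) (d k (c k k))) (c l (d (d (d (c l k) l) l) (c l l))))))) (A (O (c (c l l) (d (c (d l l) (d k (c k k))) (c l (d (d l l) (c l l)))))) (O (c (c l l) (d (c (d l l) (d k (c k k))) (c l (d (d (d (c l k) l) l) (c l l)))))))))))) (A (B (A (B (A (B (O (c (c l l) (d (c (d (d (c l k) l) l) (c k k)) (c (c l l) (d (c (d l l) (d k (d (c k k) (c k k)))) (c l (d (c l l) l))))))) (A (O (c (c l l) (d (c l (d k (c k k))) (c l (d l l))))) (O (c (c l l) (d (c (d (d l l) l) (d k (c k k))) (c l (d (d (d (c l k) l) l) (c l l)))))))) (B (A (B (O (c (c (c (c l l) (c l l)) (d (d l l) l)) (d (c (d (c (d (d (c l (c (d (d (d (d (c l k) l) l) l) l) k)) l) l) (d k (c k k)))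 (d (d (c l (d (c l k) l)) l) l)) (d k (c k k))) (c (d l l) (d (d (c l k) l) (c l l)))))) (A (O (c (c l (c l l)) (d (c (d (d (d l l) l) l) (d k (c k k))) (c l (d (d (c l k) l) l))))) s)) s) (A (B (A (O (c (c l (d l l)) (d (c (d (c l (d k (d k l))) l) (d k (c k k))) (c (c l l) (d (d (c l k) l) (c l l)))))) s) s) s))) (A (B (A (O (c (c l l) (d (c l (d k (c k k))) (c l (d (d l l) l))))) (O (c (c l (c l l)) (d (c (d (c l (c k k)) (c l l)) (d k (c k k))) (c (c l l) (d (d (c l k) l) (c l l))))))) (A (O (c (c l l) (d (c (d l l) (d k (c k k))) (c l (d (d (d (c l k) l) l) (c l l)))))) (O (c (c l l) (d (c (d (c l (c k k)) (d (c l l) l)) (d k (c k k))) (c (c l l) (d (d (c (c k k) k) (d (c l l) l)) (d (c l l) l)))))))) s)) s) (A (B (A (B (A (O (c (c l l) (d (c (d l l) (d k (c k k))) (c l (d (d (d (c l k) l) l) (c l l)))))) (O (c (c l l) (d (c (d (c l (c k k)) (d (c l (d (c l k) l)) l)) (c k k)) (c (c l l) (d (d (c (d (d (c k k) l) l) k) (c l (d (d (c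 k k) l) l))) (c l (c l l)))))))) (A (O (c (c l l) (d (c (d l l) (d k (c k k))) (c l (d (d (d (c l k) l) l) (c l l)))))) s)) s) (A (B (A (O (c l (d (c (d l l) (d k (c k k))) (c l (d (d (c l k) l) (c l l)))))) s) (A (O (c l (d (c (d l l) (c k k)) (c l (d (d (c l k) (c l l)) (c l l)))))) s)) s)) s)) s))

theorem s10_r : Sound P10 0 32768 0 32768 :=
  chkOut3_sound P10 KK tr10_r 0 32768 0 32768 (by decide +kernel)

end Vale.Agent.P154.SP
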